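import Mathlib

/-! P315: regret of the optimistic mirror descent with UNNORMALISED relative entropy over an
arbitrary set of nonnegative vectors (component hedge): no row structure, no normalisation.
`round_step`, `block_regret` (one block), `restart_regret` (blocks with restarts and mixing). -/

set_option autoImplicit false

namespace Vale.Agent.P315.H757

open Finset

variable {E : Type*} [Fintype E]

/-- Unnormalised relative entropy. -/
noncomputable def KLg (p q : E → ℝ) : ℝ :=
  ∑ e, (p e * Real.log (p e / q e) - p e + q e)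

/-- The linear value. -/
noncomputable def val (d x : E → ℝ) : ℝ := ∑ e, d e * x e

theorem KLg_nonneg {p q : E → ℝ} (hp : ∀ e, 0 ≤ p e) (hq : ∀ e, 0 < q e) : 0 ≤ KLg p q := by
  refine Finset.sum_nonneg fun e _ => ?_
  rcases (hp e).eq_or_lt with h | h
  · rw [← h]; have := hq e; simp [this.le]
  · have h1 : Real.log (q e / p e) ≤ q e / p e - 1 :=
      Real.log_le_sub_one_of_pos (div_pos (hq e) h)
    have h2 : Real.log (p e / q e) = - Real.log (q e / p e) := by
      rw [← Real.log_inv, inv_div]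
    rw [h2]
    have h3 : p e * Real.log (q e / p e) ≤ p e * (q e / p e - 1) :=
      mul_le_mul_of_nonneg_left h1 h.le
    have h4 : p e * (q e / p e - 1) = q e - p e := by
      have := h.ne'
      field_simp
    linarith

/-- The exact three point identity. -/
theorem three_point {p x y : E → ℝ} (hp : ∀ e, 0 ≤ p e) (hx : ∀ e, 0 < x e)
    (hy : ∀ e, 0 < y e) :
    KLg p y = KLg p x + KLg x y + ∑ e, (p e - x e) * Real.log (x e / y e) := by
  unfold KLg
  rw [← Finset.sum_add_distrib, ← Finset.sum_add_distrib]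
  refine Finset.sum_congr rfl fun e _ => ?_
  have h1 : p e * Real.log (p e / y e) = p e * Real.log (p e / x e) +
      p e * Real.log (x e / y e) := by
    rcases (hp e).eq_or_lt with h | h
    · rw [← h]; simp
    · have h2 : p e / y e = (p e / x e) * (x e / y e) := by
        have := (hx e).ne'
        have := (hy e).ne'
        field_simp
      rw [h2, Real.log_mul (div_pos h (hx e)).ne' (div_pos (hx e) (hy e)).ne']
      ring
  rw [h1]; ring

/-- The multiplicative update. -/
theorem KLg_update {p x m : E → ℝ} (hp : ∀ e, 0 ≤ p e) (hx : ∀ e, 0 < x e)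
    (hm : ∀ e, 0 < m e) :
    KLg p (fun e => x e * m e) =
      KLg p x - ∑ e, p e * Real.log (m e) + ∑ e, x e * (m e - 1) := by
  unfold KLg
  rw [← Finset.sum_sub_distrib, ← Finset.sum_add_distrib]
  refine Finset.sum_congr rfl fun e _ => ?_
  have h1 : p e * Real.log (p e / (x e * m e)) = p e * Real.log (p e / x e) -
      p e * Real.log (m e) := by
    rcases (hp e).eq_or_lt with h | h
    · rw [← h]; simp
    · have h2 : p e / (x e * m e) = (p e / x e) / m e := by
        rw [div_div]
      rw [h2, Real.log_div (div_pos h (hx e)).ne' (hm e).ne']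
      ring
  rw [h1]; ring

/-- Mixing, compared with the new state. -/
theorem KLg_mix_left {p y Y : E → ℝ} {ζ : ℝ} (hζ0 : 0 ≤ ζ) (hζ1 : ζ < 1) (hp : ∀ e, 0 ≤ p e)
    (hy : ∀ e, 0 < y e) (hY : ∀ e, 0 < Y e) :
    KLg p (fun e => (1 - ζ) * y e + ζ * Y e) ≤
      KLg p y + (∑ e, p e) * (- Real.log (1 - ζ)) + ζ * (∑ e, Y e - ∑ e, y e) := by
  have hz : 0 < 1 - ζ := by linarith
  unfold KLg
  rw [Finset.sum_mul, ← Finset.sum_sub_distrib, Finset.mul_sum, ← Finset.sum_add_distrib,
    ← Finset.sum_add_distrib]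
  refine Finset.sum_le_sum fun e _ => ?_
  have hzpos : 0 < (1 - ζ) * y e + ζ * Y e :=
    add_pos_of_pos_of_nonneg (mul_pos hz (hy e)) (mul_nonneg hζ0 (hY e).le)
  have h1 : p e * Real.log (p e / ((1 - ζ) * y e + ζ * Y e)) ≤
      p e * Real.log (p e / y e) + p e * (- Real.log (1 - ζ)) := by
    rcases (hp e).eq_or_lt with h | h
    · rw [← h]; simp
    · have h2 : Real.log (p e / ((1 - ζ) * y e + ζ * Y e)) ≤ Real.log (p e / ((1 - ζ) * y e)) := by
        apply Real.log_le_log (div_pos h hzpos)
        apply div_le_div_of_nonneg_left h.le (mul_pos hz (hy e))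
        have := mul_nonneg hζ0 (hY e).le
        linarith
      have h3 : Real.log (p e / ((1 - ζ) * y e)) = Real.log (p e / y e) - Real.log (1 - ζ) := by
        have h4 : p e / ((1 - ζ) * y e) = (p e / y e) / (1 - ζ) := by
          rw [div_div, mul_comm]
        rw [h4, Real.log_div (div_pos h (hy e)).ne' hz.ne']
      rw [h3] at h2
      nlinarith
  nlinarith

/-- Mixing, compared with the old state. -/
theorem KLg_mix_right {p y Y : E → ℝ} {ζ : ℝ} (hζ0 : 0 < ζ) (hζ1 : ζ ≤ 1) (hp : ∀ e, 0 ≤ p e)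
    (hy : ∀ e, 0 < y e) (hY : ∀ e, 0 < Y e) :
    KLg p (fun e => (1 - ζ) * y e + ζ * Y e) ≤
      KLg p Y + (∑ e, p e) * (- Real.log ζ) + (1 - ζ) * (∑ e, y e - ∑ e, Y e) := by
  unfold KLg
  rw [Finset.sum_mul, ← Finset.sum_sub_distrib, Finset.mul_sum, ← Finset.sum_add_distrib,
    ← Finset.sum_add_distrib]
  refine Finset.sum_le_sum fun e _ => ?_
  have hzz : 0 ≤ (1 - ζ) * y e := mul_nonneg (by linarith) (hy e).le
  have hzpos : 0 < (1 - ζ) * y e + ζ * Y e :=
    add_pos_of_nonneg_of_pos hzz (mul_pos hζ0 (hY e))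
  have h1 : p e * Real.log (p e / ((1 - ζ) * y e + ζ * Y e)) ≤
      p e * Real.log (p e / Y e) + p e * (- Real.log ζ) := by
    rcases (hp e).eq_or_lt with h | h
    · rw [← h]; simp
    · have h2 : Real.log (p e / ((1 - ζ) * y e + ζ * Y e)) ≤ Real.log (p e / (ζ * Y e)) := by
        apply Real.log_le_log (div_pos h hzpos)
        apply div_le_div_of_nonneg_left h.le (mul_pos hζ0 (hY e))
        linarith
      have h3 : Real.log (p e / (ζ * Y e)) = Real.log (p e / Y e) - Real.log ζ := by
        have h4 : p e / (ζ * Y e) = (p e / Y e) / ζ := by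
          rw [div_div, mul_comm]
        rw [h4, Real.log_div (div_pos h (hY e)).ne' hζ0.ne']
      rw [h3] at h2
      nlinarith
  nlinarith

/-- One round. `d`, `d'`: costs before and after the round, `wt` the truncated drop, `m` the update
factor (e.g. `exp (l * wt)` with `c1 = 1, c2 = 2`, or `1 + l * wt` with `c1 = log 2, c2 = 1`),
`gap`: first order (Frank-Wolfe) gap at the comparator `p`. -/
theorem round_step {p x y d d' wt m : E → ℝ} {l c1 c2 gap : ℝ} (hl : 0 ≤ l) (hc2 : 0 ≤ c2)
    (hp : ∀ e, 0 ≤ p e) (hx : ∀ e, 0 < x e) (hy : ∀ e, 0 < y e)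
    (hw : ∀ e, wt e ≤ d e - d' e) (hm : ∀ e, 0 < m e)
    (hm1 : ∀ e, c1 * (l * wt e) ≤ Real.log (m e)) (hm2 : ∀ e, m e - 1 ≤ c2 * (l * wt e))
    (hgap : -gap ≤ ∑ e, (p e - x e) * (Real.log (x e / y e) + c2 * l * d e)) :
    KLg p (fun e => x e * m e) ≤
      KLg p y + c2 * l * (val d p - val d' x) + gap - c1 * l * val wt p := by
  rw [KLg_update hp hx hm]
  have h3 := three_point hp hx hy
  have hk := KLg_nonneg (fun e => (hx e).le) hy
  have h4 : ∑ e, (p e - x e) * (Real.log (x e / y e) + c2 * l * d e) =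
      ∑ e, (p e - x e) * Real.log (x e / y e) + c2 * l * (val d p - val d x) := by
    unfold val
    rw [← Finset.sum_sub_distrib, Finset.mul_sum, ← Finset.sum_add_distrib]
    refine Finset.sum_congr rfl fun e _ => ?_
    ring
  have h5 : c1 * l * val wt p ≤ ∑ e, p e * Real.log (m e) := by
    unfold val
    rw [Finset.mul_sum]
    refine Finset.sum_le_sum fun e _ => ?_
    have := mul_le_mul_of_nonneg_left (hm1 e) (hp e)
    calc c1 * l * (wt e * p e) = p e * (c1 * (l * wt e)) := by ring
      _ ≤ _ := this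
  have h6 : ∑ e, x e * (m e - 1) ≤ c2 * l * (val d x - val d' x) := by
    unfold val
    rw [← Finset.sum_sub_distrib, Finset.mul_sum]
    refine Finset.sum_le_sum fun e _ => ?_
    have h7 := mul_le_mul_of_nonneg_left (hm2 e) (hx e).le
    have h8 : c2 * (l * wt e) ≤ c2 * (l * (d e - d' e)) :=
      mul_le_mul_of_nonneg_left (mul_le_mul_of_nonneg_left (hw e) hl) hc2
    have h9 := mul_le_mul_of_nonneg_left h8 (hx e).le
    calc x e * (m e - 1) ≤ x e * (c2 * (l * (d e - d' e))) := h7.trans h9
      _ = _ := by ring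
  have h10 : c2 * l * (val d p - val d' x) = c2 * l * (val d p - val d x) +
      c2 * l * (val d x - val d' x) := by ring
  rw [h4] at hgap
  linarith

/-- One block of `K` rounds: costs `D k` (before round `k`), distributions `x k`, states `y k`,
factors `m k`, truncated drops `wt k`. -/
theorem block_regret {p : E → ℝ} {D x y wt m : ℕ → E → ℝ} {l c1 c2 : ℝ} {gap : ℕ → ℝ} (K : ℕ)
    (hl : 0 ≤ l) (hc2 : 0 ≤ c2) (hp : ∀ e, 0 ≤ p e)
    (hx : ∀ k < K, ∀ e, 0 < x k e) (hy0 : ∀ e, 0 < y 0 e)
    (hw : ∀ k < K, ∀ e, wt k e ≤ D k e - D (k + 1) e) (hm : ∀ k < K, ∀ e, 0 < m k e)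
    (hm1 : ∀ k < K, ∀ e, c1 * (l * wt k e) ≤ Real.log (m k e))
    (hm2 : ∀ k < K, ∀ e, m k e - 1 ≤ c2 * (l * wt k e))
    (hy : ∀ k < K, ∀ e, y (k + 1) e = x k e * m k e)
    (hgap : ∀ k < K, -gap k ≤
      ∑ e, (p e - x k e) * (Real.log (x k e / y k e) + c2 * l * D k e)) :
    (∀ e, 0 < y K e) ∧ KLg p (y K) ≤ KLg p (y 0) + ∑ k ∈ range K,
      (c2 * l * (val (D k) p - val (D (k + 1)) (x k)) + gap k - c1 * l * val (wt k) p) := by
  induction K with
  | zero => exact ⟨hy0, by simp⟩
  | succ K ih =>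
    obtain ⟨h1, h2⟩ := ih (fun k hk => hx k (by omega)) (fun k hk => hw k (by omega))
      (fun k hk => hm k (by omega)) (fun k hk => hm1 k (by omega))
      (fun k hk => hm2 k (by omega)) (fun k hk => hy k (by omega))
      (fun k hk => hgap k (by omega))
    have h3 : y (K + 1) = fun e => x K e * m K e := funext fun e => hy K (by omega) e
    refine ⟨fun e => ?_, ?_⟩
    · rw [hy K (by omega) e]
      exact mul_pos (hx K (by omega) e) (hm K (by omega) e)
    · rw [h3, Finset.sum_range_succ]
      have := round_step hl hc2 hp (hx K (by omega)) h1 (hw K (by omega)) (hm K (by omega))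
        (hm1 K (by omega)) (hm2 K (by omega)) (hgap K (by omega))
      linarith

/-- Blocks with restarts: `Y i` state at the start of block `i`, `Z i` at its end, `R i` the
reward (`KLg p (Z i) ≤ KLg p (Y i) - R i`, from `block_regret`), after an active block the next
start is `(1 - ζ) Z i + ζ Y i`, after an inactive one it is `Y i`. For every subset `A` of the
active blocks. `Nb` bounds the total weight of `p`, `S` the total weight of all states. -/
theorem restart_regret {p : E → ℝ} {Y Z : ℕ → E → ℝ} {R : ℕ → ℝ} {ζ Nb S : ℝ} (T : ℕ)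
    (act A : Finset ℕ) (hA : A ⊆ act)
    (hζ0 : 0 < ζ) (hζ1 : ζ ≤ 1 / 2) (hp : ∀ e, 0 ≤ p e) (hN : ∑ e, p e ≤ Nb)
    (hY0 : ∀ e, 0 < Y 0 e) (hYS : ∑ e, Y 0 e ≤ S)
    (hZ : ∀ i < T, ∀ e, 0 < Z i e) (hZS : ∀ i < T, ∑ e, Z i e ≤ S)
    (hYact : ∀ i < T, i ∈ act → ∀ e, Y (i + 1) e = (1 - ζ) * Z i e + ζ * Y i e)
    (hYin : ∀ i < T, i ∉ act → Y (i + 1) = Y i)
    (hR : ∀ i < T, i ∈ A → KLg p (Z i) ≤ KLg p (Y i) - R i) :
    ((∀ e, 0 < Y T e) ∧ ∑ e, Y T e ≤ S) ∧
    KLg p (Y T) + ∑ i ∈ (range T).filter (· ∈ A), R i ≤ KLg p (Y 0) +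
      (((range T).filter (· ∈ A)).card : ℝ) * (2 * ζ * Nb + ζ * S) +
      (((range T).filter (· ∈ act \ A)).card : ℝ) * (Nb * (-Real.log ζ) + S) := by
  have hNb0 : 0 ≤ Nb := (Finset.sum_nonneg fun e _ => hp e).trans hN
  have hS0 : 0 ≤ S := (Finset.sum_nonneg fun e _ => (hY0 e).le).trans hYS
  have hlogζ : 0 ≤ -Real.log ζ := by
    have := Real.log_nonpos hζ0.le (by linarith : ζ ≤ 1)
    linarith
  have hlog1 : -Real.log (1 - ζ) ≤ 2 * ζ := by
    have h1 : 0 < 1 - ζ := by linarith
    have h2 := Real.one_sub_inv_le_log_of_pos h1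
    have h3 : (1 - ζ)⁻¹ ≤ 1 + 2 * ζ := by
      rw [inv_le_comm₀ h1 (by linarith)]
      rw [inv_le_comm₀ (by linarith) h1] 
      rw [inv_le_iff_one_le_mul₀ h1]
      nlinarith
    linarith
  induction T with
  | zero => exact ⟨⟨hY0, hYS⟩, by simp⟩
  | succ T ih =>
    obtain ⟨⟨hYp, hYsum⟩, h2⟩ := ih (fun k hk => hZ k (by omega)) (fun k hk => hZS k (by omega))
      (fun k hk => hYact k (by omega)) (fun k hk => hYin k (by omega))
      (fun k hk => hR k (by omega))
    have hZp := hZ T (by omega)
    have hZs := hZS T (by omega)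
    by_cases hact : T ∈ act
    · have hYe := hYact T (by omega) hact
      have hYf : Y (T + 1) = fun e => (1 - ζ) * Z T e + ζ * Y T e := funext hYe
      have hpos : ∀ e, 0 < Y (T + 1) e := fun e => by
        rw [hYe e]
        exact add_pos (mul_pos (by linarith) (hZp e)) (mul_pos hζ0 (hYp e))
      have hsum : ∑ e, Y (T + 1) e ≤ S := by
        have : ∑ e, Y (T + 1) e = (1 - ζ) * ∑ e, Z T e + ζ * ∑ e, Y T e := by
          rw [Finset.mul_sum, Finset.mul_sum, ← Finset.sum_add_distrib]
          exact Finset.sum_congr rfl fun e _ => hYe e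
        rw [this]
        have h3 := mul_le_mul_of_nonneg_left hZs (by linarith : (0 : ℝ) ≤ 1 - ζ)
        have h4 := mul_le_mul_of_nonneg_left hYsum hζ0.le
        linarith
      refine ⟨⟨hpos, hsum⟩, ?_⟩
      by_cases hTA : T ∈ A
      · have hf1 : (range (T + 1)).filter (· ∈ A) = insert T ((range T).filter (· ∈ A)) := by
          rw [Finset.range_add_one, Finset.filter_insert, if_pos hTA]
        have hf2 : (range (T + 1)).filter (· ∈ act \ A) = (range T).filter (· ∈ act \ A) := by
          rw [Finset.range_add_one, Finset.filter_insert, if_neg]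
          simp [hTA]
        have hnot : T ∉ (range T).filter (· ∈ A) := by simp
        rw [hf1, hf2, Finset.sum_insert hnot, Finset.card_insert_of_notMem hnot]
        have h5 := KLg_mix_left hζ0.le (by linarith : ζ < 1) hp hZp hYp
        rw [← hYf] at h5
        have h6 := hR T (by omega) hTA
        have h7 : (∑ e, p e) * (-Real.log (1 - ζ)) ≤ 2 * ζ * Nb := by
          have h8 : (∑ e, p e) * (-Real.log (1 - ζ)) ≤ (∑ e, p e) * (2 * ζ) :=
            mul_le_mul_of_nonneg_left hlog1 (Finset.sum_nonneg fun e _ => hp e)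
          have h9 : (∑ e, p e) * (2 * ζ) ≤ Nb * (2 * ζ) :=
            mul_le_mul_of_nonneg_right hN (by linarith)
          linarith
        have h10 : ζ * (∑ e, Y T e - ∑ e, Z T e) ≤ ζ * S := by
          apply mul_le_mul_of_nonneg_left _ hζ0.le
          have : 0 ≤ ∑ e, Z T e := Finset.sum_nonneg fun e _ => (hZp e).le
          linarith
        push_cast
        linarith
      · have hf1 : (range (T + 1)).filter (· ∈ A) = (range T).filter (· ∈ A) := by
          rw [Finset.range_add_one, Finset.filter_insert, if_neg hTA]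
        have hf2 : (range (T + 1)).filter (· ∈ act \ A) =
            insert T ((range T).filter (· ∈ act \ A)) := by
          rw [Finset.range_add_one, Finset.filter_insert, if_pos]
          simp [hTA, hact]
        have hnot : T ∉ (range T).filter (· ∈ act \ A) := by simp
        rw [hf1, hf2, Finset.card_insert_of_notMem hnot]
        have h5 := KLg_mix_right hζ0 (by linarith : ζ ≤ 1) hp hZp hYp
        rw [← hYf] at h5
        have h7 : (∑ e, p e) * (-Real.log ζ) ≤ Nb * (-Real.log ζ) :=
          mul_le_mul_of_nonneg_right hN hlogζ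
        have h10 : (1 - ζ) * (∑ e, Z T e - ∑ e, Y T e) ≤ S := by
          have h11 : 0 ≤ ∑ e, Y T e := Finset.sum_nonneg fun e _ => (hYp e).le
          have h12 : ∑ e, Z T e - ∑ e, Y T e ≤ S := by linarith
          rcases le_or_gt 0 (∑ e, Z T e - ∑ e, Y T e) with h13 | h13
          · have : (1 - ζ) * (∑ e, Z T e - ∑ e, Y T e) ≤ 1 * (∑ e, Z T e - ∑ e, Y T e) :=
              mul_le_mul_of_nonneg_right (by linarith) h13
            linarith
          · have : (1 - ζ) * (∑ e, Z T e - ∑ e, Y T e) ≤ 0 :=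
              mul_nonpos_of_nonneg_of_nonpos (by linarith) h13.le
            linarith
        push_cast
        linarith
    · have hYf := hYin T (by omega) hact
      have hTA : T ∉ A := fun h => hact (hA h)
      rw [hYf]
      refine ⟨⟨hYp, hYsum⟩, ?_⟩
      have hf1 : (range (T + 1)).filter (· ∈ A) = (range T).filter (· ∈ A) := by
        rw [Finset.range_add_one, Finset.filter_insert, if_neg hTA]
      have hf2 : (range (T + 1)).filter (· ∈ act \ A) = (range T).filter (· ∈ act \ A) := by
        rw [Finset.range_add_one, Finset.filter_insert, if_neg]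
        simp [hact]
      rw [hf1, hf2]
      exact h2

end Vale.Agent.P315.H757
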